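import Crest.Agent.Helper82.SD.Unique
import Crest.Prelude.Def_QuadraticTransport

/-!
# The uniform probability measure on a convex body: the facts needed for Laguerre weights
-/

set_option autoImplicit false
set_option linter.unusedSectionVars false
open MeasureTheory
open scoped ENNReal NNReal InnerProductSpace

namespace Crest.Agent.Helper82.SD

open Crest.AnalysisR.OT

variable {d : ℕ}

local notation "E" => EuclideanSpace ℝ (Fin d)

lemma volume_ne_zero_of_interior {K : Set E} (hKi : (interior K).Nonempty) :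
    (volume : Measure E) K ≠ 0 := by
  have h1 : 0 < (volume : Measure E) (interior K) := isOpen_interior.measure_pos volume hKi
  exact (h1.trans_le (measure_mono interior_subset)).ne'

lemma volume_ne_top_of_compact {K : Set E} (hKc : IsCompact K) :
    (volume : Measure E) K ≠ ⊤ := hKc.measure_lt_top.ne

lemma uniformProbOn_apply {K : Set E} (hK : MeasurableSet K) (s : Set E) :
    uniformProbOn K s = (volume K)⁻¹ * volume (s ∩ K) := by
  unfold uniformProbOn
  rw [Measure.smul_apply, smul_eq_mul, Measure.restrict_apply' hK]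

lemma isProbabilityMeasure_uniformProbOn {K : Set E} (hKc : IsCompact K)
    (hKi : (interior K).Nonempty) : IsProbabilityMeasure (uniformProbOn K) := by
  constructor
  rw [uniformProbOn_apply hKc.measurableSet, Set.univ_inter]
  exact ENNReal.inv_mul_cancel (volume_ne_zero_of_interior hKi) (volume_ne_top_of_compact hKc)

lemma uniformProbOn_compl {K : Set E} (hK : MeasurableSet K) : uniformProbOn K Kᶜ = 0 := by
  rw [uniformProbOn_apply hK, Set.compl_inter_self, measure_empty, mul_zero]

lemma uniformProbOn_inter_self {K : Set E} (hK : MeasurableSet K) (s : Set E) :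
    uniformProbOn K (K ∩ s) = uniformProbOn K s := by
  rw [uniformProbOn_apply hK, uniformProbOn_apply hK]
  congr 2
  ext x
  simp only [Set.mem_inter_iff]
  tauto

lemma uniformProbOn_ae_bound {K : Set E} (hKc : IsCompact K) :
    ∃ R : ℝ, ∀ᵐ x ∂(uniformProbOn K), ‖x‖ ≤ R := by
  obtain ⟨R, hR⟩ := hKc.isBounded.exists_norm_le
  refine ⟨R, ?_⟩
  rw [ae_iff]
  exact measure_mono_null (fun x hx hxK => hx (hR x hxK)) (uniformProbOn_compl hKc.measurableSet)

/-- Affine hyperplanes are Lebesgue-null. -/
lemma volume_hyperplane (a : E) (ha : a ≠ 0) (t : ℝ) :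
    (volume : Measure E) {x | ⟪x, a⟫_ℝ = t} = 0 := by
  have haa : ⟪a, a⟫_ℝ ≠ 0 := by
    intro h
    exact ha (inner_self_eq_zero.1 h)
  set x0 : E := (t / ⟪a, a⟫_ℝ) • a with hx0
  have hset : {x : E | ⟪x, a⟫_ℝ = t}
      = (fun x => x + (-x0)) ⁻¹' (((ℝ ∙ a)ᗮ : Submodule ℝ E) : Set E) := by
    ext x
    have h1 : ⟪x + -x0, a⟫_ℝ = ⟪x, a⟫_ℝ - t := by
      rw [inner_add_left, inner_neg_left, hx0, real_inner_smul_left]
      field_simp
      ring
    constructor
    · intro hx
      have hx' : ⟪x, a⟫_ℝ = t := hx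
      show x + -x0 ∈ (ℝ ∙ a)ᗮ
      rw [Submodule.mem_orthogonal_singleton_iff_inner_left, h1, hx', sub_self]
    · intro hx
      have hx' : x + -x0 ∈ (ℝ ∙ a)ᗮ := hx
      rw [Submodule.mem_orthogonal_singleton_iff_inner_left, h1] at hx'
      show ⟪x, a⟫_ℝ = t
      linarith
  rw [hset, measure_preimage_add_right]
  apply Measure.addHaar_submodule
  intro htop
  have h2 : a ∈ (ℝ ∙ a)ᗮ := by rw [htop]; trivial
  rw [Submodule.mem_orthogonal_singleton_iff_inner_left] at h2
  exact haa h2

lemma uniformProbOn_hyperplane (K : Set E) (a : E) (ha : a ≠ 0) (t : ℝ) :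
    uniformProbOn K {x | ⟪x, a⟫_ℝ = t} = 0 := by
  unfold uniformProbOn
  rw [Measure.smul_apply, smul_eq_mul]
  have : (volume.restrict K) {x : E | ⟪x, a⟫_ℝ = t} = 0 :=
    le_antisymm ((Measure.restrict_apply_le _ _).trans (volume_hyperplane a ha t).le) zero_le
  rw [this, mul_zero]

/-- A relatively open nonempty piece of a convex body has positive mass. -/
lemma uniformProbOn_pos_of_open {K : Set E} (hKc : IsCompact K) (hKv : Convex ℝ K)
    (hKi : (interior K).Nonempty) {U : Set E} (hU : IsOpen U) (hne : (U ∩ K).Nonempty) :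
    0 < uniformProbOn K U := by
  obtain ⟨x, hxU, hxK⟩ := hne
  have hcl : x ∈ closure (interior K) := by
    rw [hKv.closure_interior_eq_closure_of_nonempty_interior hKi]
    exact subset_closure hxK
  obtain ⟨z, hzU, hzK⟩ := mem_closure_iff.1 hcl U hU hxU
  have hpos : 0 < (volume : Measure E) (U ∩ interior K) :=
    (hU.inter isOpen_interior).measure_pos volume ⟨z, hzU, hzK⟩
  rw [uniformProbOn_apply hKc.measurableSet]
  apply ENNReal.mul_pos
  · exact ENNReal.inv_ne_zero.2 (volume_ne_top_of_compact hKc)
  · exact (hpos.trans_le (measure_mono (Set.inter_subset_inter_right U interior_subset))).ne'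

end Crest.Agent.Helper82.SD
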