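import Crest.Agent.Helper82.SD.Unique

/-!
# Continuity of cell masses in the weights, and of the weights in the masses (raw form)
-/

set_option autoImplicit false
set_option linter.unusedSectionVars false
open MeasureTheory Filter Topology
open scoped ENNReal NNReal InnerProductSpace

namespace Crest.Agent.Helper82.SD

variable {E : Type*} [NormedAddCommGroup E] [InnerProductSpace ℝ E] [MeasurableSpace E]
  [BorelSpace E]
variable {ι : Type*} [Fintype ι] [Nonempty ι]

/-- **Cell masses are continuous in the weights** (hyperplanes null, distinct sites). -/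
theorem tendsto_measure_cell (ρ : Measure E) [IsFiniteMeasure ρ]
    (hties : ∀ (v : E) (c : ℝ), v ≠ 0 → ρ {x | ⟪x, v⟫_ℝ = c} = 0)
    (y : ι → E) (hy : Function.Injective y) {α : Type*} (l : Filter α) [l.IsCountablyGenerated]
    (ψs : α → ι → ℝ) (ψ : ι → ℝ) (hψ : ∀ i, Tendsto (fun k => ψs k i) l (𝓝 (ψ i))) (i : ι) :
    Tendsto (fun k => ρ (cell y (ψs k) i)) l (𝓝 (ρ (cell y ψ i))) := by
  apply tendsto_measure_of_ae_tendsto_indicator_of_isFiniteMeasure l (measurableSet_cell y ψ i)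
    (fun k => measurableSet_cell y (ψs k) i)
  have hnull : ∀ᵐ x ∂ρ, x ∉ ties y ψ := by
    rw [ae_iff]
    simpa using measure_ties ρ hties y hy ψ
  filter_upwards [hnull] with x hx
  -- convergence of the affine differences
  have hdiff : ∀ j, Tendsto (fun k => (⟪x, y j⟫_ℝ - ψs k j) - (⟪x, y i⟫_ℝ - ψs k i)) l
      (𝓝 ((⟪x, y j⟫_ℝ - ψ j) - (⟪x, y i⟫_ℝ - ψ i))) := fun j =>
    (tendsto_const_nhds.sub (hψ j)).sub (tendsto_const_nhds.sub (hψ i))
  by_cases hs : x ∈ scell y ψ i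
  · have hev : ∀ᶠ k in l, ∀ j, j ≠ i → ⟪x, y j⟫_ℝ - ψs k j < ⟪x, y i⟫_ℝ - ψs k i := by
      rw [eventually_all]
      intro j
      by_cases hj : j = i
      · exact Eventually.of_forall fun k h => absurd hj h
      · have hneg : (⟪x, y j⟫_ℝ - ψ j) - (⟪x, y i⟫_ℝ - ψ i) < 0 := by
          have := hs j hj
          linarith
        filter_upwards [(hdiff j).eventually (gt_mem_nhds hneg)] with k hk _
        linarith
    filter_upwards [hev] with k hk
    exact ⟨fun _ => scell_subset_cell y ψ i hs, fun _ => scell_subset_cell y (ψs k) i hk⟩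
  · have hc : x ∉ cell y ψ i := by
      intro hcell
      rcases cell_subset_scell_union_ties y ψ i hcell with h | h
      · exact hs h
      · exact hx h
    rw [mem_cell] at hc
    push Not at hc
    obtain ⟨j, hj⟩ := hc
    have hpos : 0 < (⟪x, y j⟫_ℝ - ψ j) - (⟪x, y i⟫_ℝ - ψ i) := by linarith
    filter_upwards [(hdiff j).eventually (lt_mem_nhds hpos)] with k hk
    constructor
    · intro hk'
      have := hk' j
      linarith
    · intro hcell
      have := hcell j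
      linarith

omit [Nonempty ι] in
/-- Two sites whose cells are non-null have comparable weights. -/
lemma weight_sub_le (ρ : Measure E) {R : ℝ} (hR : ∀ᵐ x ∂ρ, ‖x‖ ≤ R) (y : ι → E) (ψ : ι → ℝ)
    (i j : ι) (hi : 0 < ρ (cell y ψ i)) : ψ i - ψ j ≤ R * ‖y i - y j‖ := by
  have hnull : ρ {x | ‖x‖ ≤ R}ᶜ = 0 := by
    rw [ae_iff] at hR
    exact hR
  have h1 : ρ (cell y ψ i ∩ {x | ‖x‖ ≤ R}) = ρ (cell y ψ i) := measure_inter_conull hnull
  obtain ⟨x, hxc, hxR⟩ := nonempty_of_measure_ne_zero (by rw [h1]; exact hi.ne')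
  have h2 := hxc j
  have h3 : ⟪x, y i - y j⟫_ℝ ≤ ‖x‖ * ‖y i - y j‖ := real_inner_le_norm x (y i - y j)
  have h4 : ‖x‖ * ‖y i - y j‖ ≤ R * ‖y i - y j‖ :=
    mul_le_mul_of_nonneg_right hxR (norm_nonneg _)
  rw [inner_sub_right] at h3
  linarith

/-- **Continuity of the weights in the masses**, tested against a mean-zero direction.
`l` is any countably generated filter (e.g. `atTop` on `ℕ`, or `𝓝[>] 0` on `ℝ`). -/
theorem tendsto_weights (ρ : Measure E) [IsFiniteMeasure ρ] {R : ℝ} (hR : ∀ᵐ x ∂ρ, ‖x‖ ≤ R)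
    (hties : ∀ (v : E) (c : ℝ), v ≠ 0 → ρ {x | ⟪x, v⟫_ℝ = c} = 0)
    (K : Set E) (hKconn : IsPreconnected K) (hKc : ρ Kᶜ = 0)
    (hpos : ∀ U : Set E, IsOpen U → (U ∩ K).Nonempty → 0 < ρ U)
    (y : ι → E) (hy : Function.Injective y) (m : ι → ℝ) (hm : ∀ i, 0 < m i)
    (ψ : ι → ℝ) (hψ : ∀ i, ρ (cell y ψ i) = ENNReal.ofReal (m i))
    {α : Type*} (l : Filter α) [l.IsCountablyGenerated] (ms : α → ι → ℝ) (ψs : α → ι → ℝ)
    (hms : ∀ i, Tendsto (fun s => ms s i) l (𝓝 (m i)))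
    (hψs : ∀ᶠ s in l, ∀ i, ρ (cell y (ψs s) i) = ENNReal.ofReal (ms s i))
    (Θ : ι → ℝ) (hΘ : ∑ i, Θ i = 0) :
    Tendsto (fun s => ∑ i, Θ i * ψs s i) l (𝓝 (∑ i, Θ i * ψ i)) := by
  apply tendsto_of_subseq_tendsto
  intro ns hns
  obtain ⟨i0⟩ := ‹Nonempty ι›
  -- normalised weights along the sequence
  set χ : ℕ → ι → ℝ := fun n i => ψs (ns n) i + (-(ψs (ns n) i0)) with hχ
  have hcellχ : ∀ n i, cell y (χ n) i = cell y (ψs (ns n)) i := fun n i =>
    cell_add_const y (ψs (ns n)) _ i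
  -- eventually the masses are positive and realised
  have hev1 : ∀ᶠ n in atTop, ∀ i, ρ (cell y (ψs (ns n)) i) = ENNReal.ofReal (ms (ns n) i) :=
    hns.eventually hψs
  have hev2 : ∀ᶠ n in atTop, ∀ i, 0 < ms (ns n) i := by
    rw [eventually_all]
    intro i
    exact ((hms i).comp hns).eventually (lt_mem_nhds (hm i))
  -- a bound for the normalised weights
  obtain ⟨Y, hY⟩ := exists_norm_bound y
  have hbd : ∀ᶠ n in atTop, χ n ∈ Metric.closedBall (0 : ι → ℝ) (|R| * (2 * Y)) := by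
    filter_upwards [hev1, hev2] with n h1 h2
    rw [mem_closedBall_zero_iff]
    have hY0 : 0 ≤ Y := (norm_nonneg _).trans (hY i0)
    refine (pi_norm_le_iff_of_nonneg (by positivity)).2 fun i => ?_
    have hpi : 0 < ρ (cell y (ψs (ns n)) i) := by
      rw [h1 i]; exact ENNReal.ofReal_pos.2 (h2 i)
    have hp0 : 0 < ρ (cell y (ψs (ns n)) i0) := by
      rw [h1 i0]; exact ENNReal.ofReal_pos.2 (h2 i0)
    have e1 := weight_sub_le ρ hR y (ψs (ns n)) i i0 hpi
    have e2 := weight_sub_le ρ hR y (ψs (ns n)) i0 i hp0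
    have e3 : ‖y i - y i0‖ ≤ 2 * Y := by
      calc ‖y i - y i0‖ ≤ ‖y i‖ + ‖y i0‖ := norm_sub_le _ _
        _ ≤ 2 * Y := by linarith [hY i, hY i0]
    have e4 : ‖y i0 - y i‖ ≤ 2 * Y := by rw [norm_sub_rev]; exact e3
    have e5 : R * ‖y i - y i0‖ ≤ |R| * (2 * Y) :=
      (mul_le_mul_of_nonneg_right (le_abs_self R) (norm_nonneg _)).trans
        (mul_le_mul_of_nonneg_left e3 (abs_nonneg R))
    have e6 : R * ‖y i0 - y i‖ ≤ |R| * (2 * Y) :=
      (mul_le_mul_of_nonneg_right (le_abs_self R) (norm_nonneg _)).trans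
        (mul_le_mul_of_nonneg_left e4 (abs_nonneg R))
    rw [Real.norm_eq_abs, abs_le]
    simp only [hχ]
    constructor <;> linarith
  obtain ⟨χ', -, φ, hφ, hlim⟩ := tendsto_subseq_of_frequently_bounded
    Metric.isBounded_closedBall hbd.frequently
  refine ⟨φ, ?_⟩
  have hφ' : Tendsto φ atTop atTop := hφ.tendsto_atTop
  have hlim' : ∀ i, Tendsto (fun n => χ (φ n) i) atTop (𝓝 (χ' i)) := fun i =>
    (tendsto_pi_nhds.1 hlim) i
  -- the limit has the masses `m`
  have hmass : ∀ i, ρ (cell y χ' i) = ρ (cell y ψ i) := by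
    intro i
    have t1 := tendsto_measure_cell ρ hties y hy atTop (fun n => χ (φ n)) χ' hlim' i
    have t2 : Tendsto (fun n => ρ (cell y (χ (φ n)) i)) atTop (𝓝 (ENNReal.ofReal (m i))) := by
      have t3 : Tendsto (fun n => ENNReal.ofReal (ms (ns (φ n)) i)) atTop
          (𝓝 (ENNReal.ofReal (m i))) :=
        (ENNReal.continuous_ofReal.tendsto _).comp (((hms i).comp hns).comp hφ')
      refine t3.congr' ?_
      filter_upwards [hφ'.eventually hev1] with n hn
      rw [hcellχ, hn i]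
    rw [hψ i]
    exact tendsto_nhds_unique t1 t2
  obtain ⟨κ, hκ⟩ := weights_unique ρ K hKconn hKc hpos y ψ χ' hmass
    (fun i => by rw [hψ i]; exact ENNReal.ofReal_pos.2 (hm i))
  -- conclusion
  have hsumχ : ∀ n, ∑ i, Θ i * ψs (ns (φ n)) i = ∑ i, Θ i * χ (φ n) i := by
    intro n
    have : ∑ i, Θ i * χ (φ n) i
        = ∑ i, Θ i * ψs (ns (φ n)) i + (∑ i, Θ i) * (-(ψs (ns (φ n)) i0)) := by
      rw [Finset.sum_mul, ← Finset.sum_add_distrib]
      apply Finset.sum_congr rfl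
      intro i _
      simp only [hχ]; ring
    rw [this, hΘ, zero_mul, add_zero]
  have hsum' : ∑ i, Θ i * ψ i = ∑ i, Θ i * χ' i := by
    have : ∑ i, Θ i * χ' i = ∑ i, Θ i * ψ i + (∑ i, Θ i) * κ := by
      rw [Finset.sum_mul, ← Finset.sum_add_distrib]
      apply Finset.sum_congr rfl
      intro i _
      rw [hκ i]; ring
    rw [this, hΘ, zero_mul, add_zero]
  rw [hsum']
  simp only [hsumχ]
  exact tendsto_finsetSum _ fun i _ => (hlim' i).const_mul (Θ i)

end Crest.Agent.Helper82.SD
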