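import Mathlib

/-!
# Semi-discrete optimal transport: Laguerre cells and the Kantorovich functional

Mathlib-only.  `E` is a real inner product space with its Borel σ-algebra, `ι` a finite index
type, `y : ι → E` the sites and `ψ : ι → ℝ` the weights.  The (closed) Laguerre cell of `i` is
`cell y ψ i = {x | ∀ j, ⟪x, y j⟫ - ψ j ≤ ⟪x, y i⟫ - ψ i}` and the potential is
`pot y ψ x = max_i (⟪x, y i⟫ - ψ i)`.
-/

set_option autoImplicit false
set_option linter.unusedSectionVars false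
open MeasureTheory
open scoped ENNReal NNReal InnerProductSpace

namespace Crest.Agent.Helper82.SD

section Basic

variable {E : Type*} [NormedAddCommGroup E] [InnerProductSpace ℝ E]
variable {ι : Type*} [Fintype ι]

/-- The closed Laguerre cell of the site `i` (inner-product convention). -/
def cell (y : ι → E) (ψ : ι → ℝ) (i : ι) : Set E :=
  {x | ∀ j, ⟪x, y j⟫_ℝ - ψ j ≤ ⟪x, y i⟫_ℝ - ψ i}

/-- The strict Laguerre cell of the site `i`. -/
def scell (y : ι → E) (ψ : ι → ℝ) (i : ι) : Set E :=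
  {x | ∀ j, j ≠ i → ⟪x, y j⟫_ℝ - ψ j < ⟪x, y i⟫_ℝ - ψ i}

/-- The `t`-shrunk cell: `i` wins by a margin at least `t` against every other site. -/
def tcell (y : ι → E) (ψ : ι → ℝ) (i : ι) (t : ℝ) : Set E :=
  {x | ∀ j, j ≠ i → ⟪x, y j⟫_ℝ - ψ j + t ≤ ⟪x, y i⟫_ℝ - ψ i}

/-- The tie set: points where two distinct sites have the same affine value. -/
def ties (y : ι → E) (ψ : ι → ℝ) : Set E :=
  ⋃ i, ⋃ j, ⋃ (_ : i ≠ j), {x | ⟪x, y i - y j⟫_ℝ = ψ i - ψ j}

/-- The potential `max_i (⟪x, y i⟫ - ψ i)`. -/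
noncomputable def pot [Nonempty ι] (y : ι → E) (ψ : ι → ℝ) (x : E) : ℝ :=
  Finset.univ.sup' Finset.univ_nonempty (fun i => ⟪x, y i⟫_ℝ - ψ i)

lemma mem_cell {y : ι → E} {ψ : ι → ℝ} {i : ι} {x : E} :
    x ∈ cell y ψ i ↔ ∀ j, ⟪x, y j⟫_ℝ - ψ j ≤ ⟪x, y i⟫_ℝ - ψ i := Iff.rfl

lemma mem_scell {y : ι → E} {ψ : ι → ℝ} {i : ι} {x : E} :
    x ∈ scell y ψ i ↔ ∀ j, j ≠ i → ⟪x, y j⟫_ℝ - ψ j < ⟪x, y i⟫_ℝ - ψ i := Iff.rfl

lemma mem_tcell {y : ι → E} {ψ : ι → ℝ} {i : ι} {t : ℝ} {x : E} :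
    x ∈ tcell y ψ i t ↔ ∀ j, j ≠ i → ⟪x, y j⟫_ℝ - ψ j + t ≤ ⟪x, y i⟫_ℝ - ψ i := Iff.rfl

lemma le_pot [Nonempty ι] (y : ι → E) (ψ : ι → ℝ) (x : E) (i : ι) :
    ⟪x, y i⟫_ℝ - ψ i ≤ pot y ψ x :=
  Finset.le_sup' (fun i => ⟪x, y i⟫_ℝ - ψ i) (Finset.mem_univ i)

lemma pot_le [Nonempty ι] {y : ι → E} {ψ : ι → ℝ} {x : E} {c : ℝ}
    (h : ∀ i, ⟪x, y i⟫_ℝ - ψ i ≤ c) : pot y ψ x ≤ c :=
  Finset.sup'_le _ _ (fun i _ => h i)

lemma exists_eq_pot [Nonempty ι] (y : ι → E) (ψ : ι → ℝ) (x : E) :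
    ∃ i, pot y ψ x = ⟪x, y i⟫_ℝ - ψ i := by
  obtain ⟨i, -, hi⟩ := Finset.exists_mem_eq_sup' Finset.univ_nonempty
    (fun i => ⟪x, y i⟫_ℝ - ψ i)
  exact ⟨i, hi⟩

/-- On the cell of `i` the potential is the `i`-th affine function. -/
lemma pot_eq_of_mem_cell [Nonempty ι] {y : ι → E} {ψ : ι → ℝ} {i : ι} {x : E}
    (hx : x ∈ cell y ψ i) : pot y ψ x = ⟪x, y i⟫_ℝ - ψ i :=
  le_antisymm (pot_le hx) (le_pot y ψ x i)

lemma mem_cell_iff_pot_eq [Nonempty ι] {y : ι → E} {ψ : ι → ℝ} {i : ι} {x : E} :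
    x ∈ cell y ψ i ↔ pot y ψ x = ⟪x, y i⟫_ℝ - ψ i :=
  ⟨pot_eq_of_mem_cell, fun h j => h ▸ le_pot y ψ x j⟩

/-- Every point lies in some cell. -/
lemma exists_mem_cell [Nonempty ι] (y : ι → E) (ψ : ι → ℝ) (x : E) : ∃ i, x ∈ cell y ψ i := by
  obtain ⟨i, hi⟩ := exists_eq_pot y ψ x
  exact ⟨i, mem_cell_iff_pot_eq.2 hi⟩

lemma scell_subset_cell (y : ι → E) (ψ : ι → ℝ) (i : ι) : scell y ψ i ⊆ cell y ψ i := by
  intro x hx j
  by_cases hj : j = i
  · subst hj; exact le_rfl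
  · exact (hx j hj).le

lemma tcell_subset_scell (y : ι → E) (ψ : ι → ℝ) (i : ι) {t : ℝ} (ht : 0 < t) :
    tcell y ψ i t ⊆ scell y ψ i := by
  intro x hx j hj
  have := hx j hj
  linarith

lemma tcell_anti (y : ι → E) (ψ : ι → ℝ) (i : ι) {s t : ℝ} (hst : s ≤ t) :
    tcell y ψ i t ⊆ tcell y ψ i s := by
  intro x hx j hj
  have := hx j hj
  linarith

/-- The strict cells are pairwise disjoint. -/
lemma scell_disjoint (y : ι → E) (ψ : ι → ℝ) {i j : ι} (hij : i ≠ j) :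
    Disjoint (scell y ψ i) (scell y ψ j) := by
  rw [Set.disjoint_left]
  intro x hi hj
  have h1 := hi j hij.symm
  have h2 := hj i hij
  linarith

/-- A point of a cell that is not in the strict cell is a tie point. -/
lemma cell_subset_scell_union_ties (y : ι → E) (ψ : ι → ℝ) (i : ι) :
    cell y ψ i ⊆ scell y ψ i ∪ ties y ψ := by
  intro x hx
  by_cases hs : x ∈ scell y ψ i
  · exact Or.inl hs
  · right
    rw [mem_scell] at hs
    push Not at hs
    obtain ⟨j, hji, hj⟩ := hs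
    have hle := hx j
    have heq : ⟪x, y i⟫_ℝ - ψ i = ⟪x, y j⟫_ℝ - ψ j := le_antisymm hj hle
    simp only [ties, Set.mem_iUnion]
    refine ⟨i, j, fun h => hji h.symm, ?_⟩
    show ⟪x, y i - y j⟫_ℝ = ψ i - ψ j
    rw [inner_sub_right]; linarith

/-- Off the tie set, the strict cells cover the space. -/
lemma compl_iUnion_scell_subset_ties [Nonempty ι] (y : ι → E) (ψ : ι → ℝ) :
    (⋃ i, scell y ψ i)ᶜ ⊆ ties y ψ := by
  intro x hx
  obtain ⟨i, hi⟩ := exists_mem_cell y ψ x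
  rcases cell_subset_scell_union_ties y ψ i hi with h | h
  · exact absurd (Set.mem_iUnion.2 ⟨i, h⟩) hx
  · exact h

/-- The potential is `1`-Lipschitz in the weights (sup norm). -/
lemma pot_le_pot_add [Nonempty ι] (y : ι → E) (ψ ψ' : ι → ℝ) (x : E) :
    pot y ψ x ≤ pot y ψ' x + ‖ψ - ψ'‖ := by
  apply pot_le
  intro i
  have h1 := le_pot y ψ' x i
  have h2 : |ψ i - ψ' i| ≤ ‖ψ - ψ'‖ := by
    have := norm_le_pi_norm (ψ - ψ') i
    simpa [Real.norm_eq_abs] using this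
  have h3 := neg_abs_le (ψ i - ψ' i)
  linarith

lemma abs_pot_sub_pot_le [Nonempty ι] (y : ι → E) (ψ ψ' : ι → ℝ) (x : E) :
    |pot y ψ x - pot y ψ' x| ≤ ‖ψ - ψ'‖ := by
  rw [abs_le]
  have h1 := pot_le_pot_add y ψ ψ' x
  have h2 := pot_le_pot_add y ψ' ψ x
  rw [norm_sub_rev] at h2
  constructor <;> linarith

/-- Adding a constant to all weights shifts the potential. -/
lemma pot_add_const [Nonempty ι] (y : ι → E) (ψ : ι → ℝ) (c : ℝ) (x : E) :
    pot y (fun i => ψ i + c) x = pot y ψ x - c := by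
  apply le_antisymm
  · apply pot_le
    intro i
    have := le_pot y ψ x i
    linarith
  · have : pot y ψ x ≤ pot y (fun i => ψ i + c) x + c := by
      apply pot_le
      intro i
      have := le_pot y (fun i => ψ i + c) x i
      linarith
    linarith

/-- The cells do not change when a constant is added to all weights. -/
lemma cell_add_const (y : ι → E) (ψ : ι → ℝ) (c : ℝ) (i : ι) :
    cell y (fun i => ψ i + c) i = cell y ψ i := by
  ext x
  simp only [mem_cell]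
  constructor <;> intro h j <;> have := h j <;> linarith

/-- A crude bound for the potential. -/
lemma abs_pot_le [Nonempty ι] (y : ι → E) (ψ : ι → ℝ) (x : E) {Y : ℝ} (hY : ∀ i, ‖y i‖ ≤ Y) :
    |pot y ψ x| ≤ ‖x‖ * Y + ‖ψ‖ := by
  have hb : ∀ i, |⟪x, y i⟫_ℝ - ψ i| ≤ ‖x‖ * Y + ‖ψ‖ := by
    intro i
    have h1 : |⟪x, y i⟫_ℝ| ≤ ‖x‖ * ‖y i‖ := abs_real_inner_le_norm x (y i)
    have h2 : ‖x‖ * ‖y i‖ ≤ ‖x‖ * Y := mul_le_mul_of_nonneg_left (hY i) (norm_nonneg x)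
    have h3 : |ψ i| ≤ ‖ψ‖ := by
      have := norm_le_pi_norm ψ i
      simpa [Real.norm_eq_abs] using this
    calc |⟪x, y i⟫_ℝ - ψ i| ≤ |⟪x, y i⟫_ℝ| + |ψ i| := abs_sub _ _
      _ ≤ ‖x‖ * Y + ‖ψ‖ := by linarith
  rw [abs_le]
  constructor
  · obtain ⟨i⟩ := ‹Nonempty ι›
    have h1 := le_pot y ψ x i
    have h2 := (abs_le.1 (hb i)).1
    linarith
  · apply pot_le
    intro i
    exact (abs_le.1 (hb i)).2

end Basic

section Measurable

variable {E : Type*} [NormedAddCommGroup E] [InnerProductSpace ℝ E] [MeasurableSpace E]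
  [BorelSpace E]
variable {ι : Type*} [Fintype ι]

lemma continuous_pot [Nonempty ι] (y : ι → E) (ψ : ι → ℝ) : Continuous (pot y ψ) := by
  unfold pot
  exact Continuous.finset_sup'_apply Finset.univ_nonempty (fun i _ => by fun_prop)

lemma measurable_pot [Nonempty ι] (y : ι → E) (ψ : ι → ℝ) : Measurable (pot y ψ) :=
  (continuous_pot y ψ).measurable

lemma isClosed_cell (y : ι → E) (ψ : ι → ℝ) (i : ι) : IsClosed (cell y ψ i) := by
  have : cell y ψ i = ⋂ j, {x | ⟪x, y j⟫_ℝ - ψ j ≤ ⟪x, y i⟫_ℝ - ψ i} := by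
    ext x; simp [cell]
  rw [this]
  exact isClosed_iInter fun j => isClosed_le (by fun_prop) (by fun_prop)

lemma measurableSet_cell (y : ι → E) (ψ : ι → ℝ) (i : ι) : MeasurableSet (cell y ψ i) :=
  (isClosed_cell y ψ i).measurableSet

lemma isClosed_tcell (y : ι → E) (ψ : ι → ℝ) (i : ι) (t : ℝ) : IsClosed (tcell y ψ i t) := by
  have : tcell y ψ i t = ⋂ j, ⋂ (_ : j ≠ i), {x | ⟪x, y j⟫_ℝ - ψ j + t ≤ ⟪x, y i⟫_ℝ - ψ i} := by
    ext x; simp [tcell]
  rw [this]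
  exact isClosed_iInter fun j => isClosed_iInter fun _ =>
    isClosed_le (by fun_prop) (by fun_prop)

lemma measurableSet_tcell (y : ι → E) (ψ : ι → ℝ) (i : ι) (t : ℝ) :
    MeasurableSet (tcell y ψ i t) :=
  (isClosed_tcell y ψ i t).measurableSet

lemma isOpen_scell (y : ι → E) (ψ : ι → ℝ) (i : ι) : IsOpen (scell y ψ i) := by
  have : scell y ψ i = ⋂ j, ⋂ (_ : j ≠ i), {x | ⟪x, y j⟫_ℝ - ψ j < ⟪x, y i⟫_ℝ - ψ i} := by
    ext x; simp [scell]
  rw [this]
  exact isOpen_iInter_of_finite fun j => isOpen_iInter_of_finite fun _ =>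
    isOpen_lt (by fun_prop) (by fun_prop)

lemma measurableSet_scell (y : ι → E) (ψ : ι → ℝ) (i : ι) : MeasurableSet (scell y ψ i) :=
  (isOpen_scell y ψ i).measurableSet

/-- The strict cell is the increasing union of the shrunk cells. -/
lemma scell_eq_iUnion_tcell (y : ι → E) (ψ : ι → ℝ) (i : ι) :
    scell y ψ i = ⋃ n : ℕ, tcell y ψ i (1 / ((n : ℝ) + 1)) := by
  apply Set.Subset.antisymm
  · intro x hx
    choose n hn using fun j (hj : j ≠ i) => exists_nat_one_div_lt (sub_pos.mpr (hx j hj))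
    classical
    let N : ℕ := Finset.univ.sup (fun j => if h : j ≠ i then n j h else 0)
    refine Set.mem_iUnion.2 ⟨N, ?_⟩
    intro j hj
    have h1 : n j hj ≤ N := by
      have h0 : (fun j => if h : j ≠ i then n j h else 0) j ≤ N :=
        Finset.le_sup (f := fun j => if h : j ≠ i then n j h else 0) (Finset.mem_univ j)
      have h00 : (fun j => if h : j ≠ i then n j h else 0) j = n j hj := dif_pos hj
      rw [h00] at h0
      exact h0
    have h2 : (1 : ℝ) / ((N : ℝ) + 1) ≤ 1 / ((n j hj : ℝ) + 1) := by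
      apply one_div_le_one_div_of_le (by positivity)
      have : (n j hj : ℝ) ≤ N := by exact_mod_cast h1
      linarith
    have h3 := hn j hj
    linarith
  · apply Set.iUnion_subset
    intro n
    exact tcell_subset_scell y ψ i (by positivity)

lemma monotone_tcell_seq (y : ι → E) (ψ : ι → ℝ) (i : ι) :
    Monotone (fun n : ℕ => tcell y ψ i (1 / ((n : ℝ) + 1))) := by
  intro a b hab
  apply tcell_anti
  apply one_div_le_one_div_of_le (by positivity)
  have : (a : ℝ) ≤ b := by exact_mod_cast hab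
  linarith

end Measurable

end Crest.Agent.Helper82.SD
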