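import Crest.Agent.Helper82.SD.Basic

/-!
# Existence of Laguerre weights with prescribed cell masses

`ρ` is a probability measure on `E` with bounded support (`∀ᵐ x ∂ρ, ‖x‖ ≤ R`) which gives no
mass to affine hyperplanes.  For distinct sites `y` and positive masses `m` of total mass one,
there are weights `ψ` with `ρ (cell y ψ i) = m i` for all `i`.  The weights are obtained as a
minimiser of the Kantorovich functional `Phi ρ y m ψ = ∫ pot y ψ dρ + ∑ m i * ψ i`.
-/

set_option autoImplicit false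
set_option linter.unusedSectionVars false
open MeasureTheory
open scoped ENNReal NNReal InnerProductSpace

namespace Crest.Agent.Helper82.SD

variable {E : Type*} [NormedAddCommGroup E] [InnerProductSpace ℝ E] [MeasurableSpace E]
  [BorelSpace E]
variable {ι : Type*} [Fintype ι] [Nonempty ι]

/-- The Kantorovich functional. -/
noncomputable def Phi (ρ : Measure E) (y : ι → E) (m : ι → ℝ) (ψ : ι → ℝ) : ℝ :=
  ∫ x, pot y ψ x ∂ρ + ∑ i, m i * ψ i

lemma exists_norm_bound (y : ι → E) : ∃ Y, ∀ i, ‖y i‖ ≤ Y :=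
  ⟨∑ i, ‖y i‖, fun i =>
    Finset.single_le_sum (f := fun j => ‖y j‖) (fun j _ => norm_nonneg (y j)) (Finset.mem_univ i)⟩

section
variable (ρ : Measure E) [IsProbabilityMeasure ρ] {R : ℝ} (hR : ∀ᵐ x ∂ρ, ‖x‖ ≤ R)
  (y : ι → E) (m : ι → ℝ)

include hR

lemma radius_nonneg : 0 ≤ R := by
  obtain ⟨x, hx⟩ := hR.exists
  exact (norm_nonneg x).trans hx

lemma integrable_pot (ψ : ι → ℝ) : Integrable (pot y ψ) ρ := by
  obtain ⟨Y, hY⟩ := exists_norm_bound y
  refine Integrable.of_bound (measurable_pot y ψ).aestronglyMeasurable (R * Y + ‖ψ‖) ?_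
  filter_upwards [hR] with x hx
  rw [Real.norm_eq_abs]
  refine (abs_pot_le y ψ x hY).trans ?_
  have hY0 : 0 ≤ Y := (norm_nonneg _).trans (hY (Classical.arbitrary ι))
  have := mul_le_mul_of_nonneg_right hx hY0
  linarith

lemma abs_integral_pot_sub_le (ψ ψ' : ι → ℝ) :
    |∫ x, pot y ψ x ∂ρ - ∫ x, pot y ψ' x ∂ρ| ≤ ‖ψ - ψ'‖ := by
  rw [← integral_sub (integrable_pot ρ hR y ψ) (integrable_pot ρ hR y ψ')]
  have := norm_integral_le_of_norm_le_const (μ := ρ) (f := fun x => pot y ψ x - pot y ψ' x)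
    (C := ‖ψ - ψ'‖) (Filter.Eventually.of_forall fun x => by
      rw [Real.norm_eq_abs]; exact abs_pot_sub_pot_le y ψ ψ' x)
  simpa [Real.norm_eq_abs] using this

lemma continuous_Phi : Continuous (Phi ρ y m) := by
  have h1 : Continuous (fun ψ : ι → ℝ => ∫ x, pot y ψ x ∂ρ) := by
    have : LipschitzWith 1 (fun ψ : ι → ℝ => ∫ x, pot y ψ x ∂ρ) := by
      apply LipschitzWith.of_dist_le_mul
      intro ψ ψ'
      rw [Real.dist_eq, dist_eq_norm]
      simpa using abs_integral_pot_sub_le ρ hR y ψ ψ'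
    exact this.continuous
  have h2 : Continuous (fun ψ : ι → ℝ => ∑ i, m i * ψ i) := by fun_prop
  exact h1.add h2

lemma Phi_add_const (hm : ∑ i, m i = 1) (ψ : ι → ℝ) (c : ℝ) :
    Phi ρ y m (fun i => ψ i + c) = Phi ρ y m ψ := by
  unfold Phi
  simp only [pot_add_const]
  rw [integral_sub (integrable_pot ρ hR y ψ) (integrable_const c)]
  simp [mul_add, Finset.sum_add_distrib, ← Finset.sum_mul, hm]

lemma Phi_ge (hm0 : ∀ i, 0 ≤ m i) {Y : ℝ} (hY : ∀ i, ‖y i‖ ≤ Y) (ψ : ι → ℝ)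
    (hψ : ∀ i, 0 ≤ ψ i) (i0 : ι) (h0 : ψ i0 = 0) (i1 : ι) :
    - (R * Y) + m i1 * ψ i1 ≤ Phi ρ y m ψ := by
  have h1 : - (R * Y) ≤ ∫ x, pot y ψ x ∂ρ := by
    have : ∫ _x, (-(R * Y)) ∂ρ ≤ ∫ x, pot y ψ x ∂ρ := by
      apply integral_mono_ae (integrable_const _) (integrable_pot ρ hR y ψ)
      filter_upwards [hR] with x hx
      have h1 := le_pot y ψ x i0
      rw [h0, sub_zero] at h1
      have h2 : |⟪x, y i0⟫_ℝ| ≤ ‖x‖ * ‖y i0‖ := abs_real_inner_le_norm x (y i0)
      have h3 : ‖x‖ * ‖y i0‖ ≤ R * Y :=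
        mul_le_mul hx (hY i0) (norm_nonneg _) ((norm_nonneg x).trans hx)
      have h4 := neg_abs_le ⟪x, y i0⟫_ℝ
      linarith
    simpa using this
  have h2 : m i1 * ψ i1 ≤ ∑ i, m i * ψ i :=
    Finset.single_le_sum (f := fun i => m i * ψ i) (fun i _ => mul_nonneg (hm0 i) (hψ i))
      (Finset.mem_univ i1)
  unfold Phi; linarith

lemma Phi_zero_le {Y : ℝ} (hY : ∀ i, ‖y i‖ ≤ Y) : Phi ρ y m 0 ≤ R * Y := by
  unfold Phi
  have : ∫ x, pot y 0 x ∂ρ ≤ ∫ _x, R * Y ∂ρ := by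
    apply integral_mono_ae (integrable_pot ρ hR y 0) (integrable_const _)
    filter_upwards [hR] with x hx
    apply pot_le
    intro i
    simp only [Pi.zero_apply, sub_zero]
    have h2 : |⟪x, y i⟫_ℝ| ≤ ‖x‖ * ‖y i‖ := abs_real_inner_le_norm x (y i)
    have h3 : ‖x‖ * ‖y i‖ ≤ R * Y :=
      mul_le_mul hx (hY i) (norm_nonneg _) ((norm_nonneg x).trans hx)
    have h4 := le_abs_self ⟪x, y i⟫_ℝ
    linarith
  simp at this ⊢
  linarith

/-- The Kantorovich functional has a global minimiser (masses positive, total mass one). -/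
lemma exists_min_Phi (hm0 : ∀ i, 0 < m i) (hm : ∑ i, m i = 1) :
    ∃ ψ₀ : ι → ℝ, ∀ ψ, Phi ρ y m ψ₀ ≤ Phi ρ y m ψ := by
  obtain ⟨Y, hY⟩ := exists_norm_bound y
  have hY0 : 0 ≤ Y := (norm_nonneg _).trans (hY (Classical.arbitrary ι))
  have hR0 : 0 ≤ R := radius_nonneg ρ hR
  obtain ⟨δ, hδ, hδm⟩ : ∃ δ > 0, ∀ i, δ ≤ m i := by
    obtain ⟨i, -, hi⟩ := Finset.exists_min_image Finset.univ m Finset.univ_nonempty
    exact ⟨m i, hm0 i, fun j => hi j (Finset.mem_univ j)⟩
  set T : ℝ := 2 * (R * Y) / δ with hT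
  have hRY : 0 ≤ R * Y := mul_nonneg hR0 hY0
  have hT0 : 0 ≤ T := by positivity
  obtain ⟨ψ₀, -, hψ₀⟩ := (isCompact_Icc : IsCompact (Set.Icc (0 : ι → ℝ) (fun _ => T))).exists_isMinOn
    ⟨0, le_rfl, fun _ => hT0⟩ (continuous_Phi ρ hR y m).continuousOn
  refine ⟨ψ₀, fun ψ => ?_⟩
  obtain ⟨i0, -, hi0⟩ := Finset.exists_min_image Finset.univ ψ Finset.univ_nonempty
  set ψ' : ι → ℝ := fun i => ψ i + (-(ψ i0)) with hψ'
  have hΦ : Phi ρ y m ψ' = Phi ρ y m ψ := Phi_add_const ρ hR y m hm ψ _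
  have hψ'0 : ∀ i, 0 ≤ ψ' i := fun i => by
    have := hi0 i (Finset.mem_univ i)
    simp only [hψ']; linarith
  have hψ'i0 : ψ' i0 = 0 := by simp [hψ']
  rw [← hΦ]
  by_cases hb : ∀ i, ψ' i ≤ T
  · exact hψ₀ ⟨fun i => hψ'0 i, fun i => hb i⟩
  · push Not at hb
    obtain ⟨i1, hi1⟩ := hb
    have h1 := Phi_ge ρ hR y m (fun i => (hm0 i).le) hY ψ' hψ'0 i0 hψ'i0 i1
    have h2 := Phi_zero_le ρ hR y m hY
    have h3 : Phi ρ y m ψ₀ ≤ Phi ρ y m 0 := hψ₀ ⟨le_rfl, fun _ => hT0⟩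
    have h4 : 2 * (R * Y) ≤ m i1 * ψ' i1 := by
      have h5 : δ * T ≤ m i1 * ψ' i1 := mul_le_mul (hδm i1) hi1.le hT0 (hm0 i1).le
      have h6 : δ * T = 2 * (R * Y) := by rw [hT]; field_simp
      linarith
    linarith

omit hR in
/-- Raising the weight of `i` by `t ≥ 0` lowers the potential by `t` on the `t`-shrunk cell. -/
lemma pot_update_le [DecidableEq ι] (ψ : ι → ℝ) (i : ι) {t : ℝ} (ht : 0 ≤ t) (x : E) :
    pot y (Function.update ψ i (ψ i + t)) x
      ≤ pot y ψ x - t * (tcell y ψ i t).indicator (fun _ => (1 : ℝ)) x := by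
  by_cases hx : x ∈ tcell y ψ i t
  · rw [Set.indicator_of_mem hx, mul_one]
    apply pot_le
    intro j
    by_cases hj : j = i
    · subst hj
      rw [Function.update_self]
      have := le_pot y ψ x j
      linarith
    · rw [Function.update_of_ne hj]
      have h1 := hx j hj
      have h2 := le_pot y ψ x i
      linarith
  · rw [Set.indicator_of_notMem hx, mul_zero, sub_zero]
    apply pot_le
    intro j
    by_cases hj : j = i
    · subst hj
      rw [Function.update_self]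
      have := le_pot y ψ x j
      linarith
    · rw [Function.update_of_ne hj]
      exact le_pot y ψ x j

/-- One-sided first-order condition at a minimiser. -/
lemma measureReal_tcell_le_of_min (ψ₀ : ι → ℝ) (hmin : ∀ ψ, Phi ρ y m ψ₀ ≤ Phi ρ y m ψ)
    (i : ι) {t : ℝ} (ht : 0 < t) : ρ.real (tcell y ψ₀ i t) ≤ m i := by
  classical
  have h1 := hmin (Function.update ψ₀ i (ψ₀ i + t))
  have hI : Integrable (fun x => (tcell y ψ₀ i t).indicator (fun _ => (1 : ℝ)) x) ρ :=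
    (integrable_const (1 : ℝ)).indicator (measurableSet_tcell y ψ₀ i t)
  have h2 : ∫ x, pot y (Function.update ψ₀ i (ψ₀ i + t)) x ∂ρ
      ≤ ∫ x, pot y ψ₀ x ∂ρ - t * ρ.real (tcell y ψ₀ i t) := by
    calc ∫ x, pot y (Function.update ψ₀ i (ψ₀ i + t)) x ∂ρ
        ≤ ∫ x, (pot y ψ₀ x - t * (tcell y ψ₀ i t).indicator (fun _ => (1 : ℝ)) x) ∂ρ :=
          integral_mono (integrable_pot ρ hR y _)
            ((integrable_pot ρ hR y _).sub (hI.const_mul t))
            (fun x => pot_update_le y ψ₀ i ht.le x)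
      _ = ∫ x, pot y ψ₀ x ∂ρ - t * ρ.real (tcell y ψ₀ i t) := by
          rw [integral_sub (integrable_pot ρ hR y _) (hI.const_mul t), integral_const_mul,
            integral_indicator_const _ (measurableSet_tcell y ψ₀ i t)]
          simp
  have h3 : ∑ j, m j * Function.update ψ₀ i (ψ₀ i + t) j = ∑ j, m j * ψ₀ j + m i * t := by
    have : ∀ j, m j * Function.update ψ₀ i (ψ₀ i + t) j
        = m j * ψ₀ j + (if j = i then m i * t else 0) := by
      intro j
      by_cases hj : j = i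
      · subst hj; simp [mul_add]
      · simp [hj]
    simp only [this, Finset.sum_add_distrib, Finset.sum_ite_eq', Finset.mem_univ, if_true]
  unfold Phi at h1
  rw [h3] at h1
  have h4 : t * ρ.real (tcell y ψ₀ i t) ≤ t * m i := by linarith
  exact le_of_mul_le_mul_left h4 ht

lemma measure_scell_le_of_min (ψ₀ : ι → ℝ) (hmin : ∀ ψ, Phi ρ y m ψ₀ ≤ Phi ρ y m ψ) (i : ι) :
    ρ (scell y ψ₀ i) ≤ ENNReal.ofReal (m i) := by
  rw [scell_eq_iUnion_tcell, (monotone_tcell_seq y ψ₀ i).measure_iUnion]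
  apply iSup_le
  intro n
  have h := measureReal_tcell_le_of_min ρ hR y m ψ₀ hmin i (t := 1 / ((n : ℝ) + 1))
    (by positivity)
  rw [← ENNReal.ofReal_toReal (measure_ne_top ρ (tcell y ψ₀ i (1 / ((n : ℝ) + 1))))]
  exact ENNReal.ofReal_le_ofReal h

end

/-- The tie set is null when `ρ` does not charge hyperplanes and the sites are distinct. -/
lemma measure_ties (ρ : Measure E) (hties : ∀ (v : E) (c : ℝ), v ≠ 0 → ρ {x | ⟪x, v⟫_ℝ = c} = 0)
    (y : ι → E) (hy : Function.Injective y) (ψ : ι → ℝ) : ρ (ties y ψ) = 0 := by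
  unfold ties
  refine measure_iUnion_null fun i => measure_iUnion_null fun j => measure_iUnion_null fun hij => ?_
  exact hties _ _ (sub_ne_zero.2 (hy.ne hij))

/-- The closed and the strict cell have the same measure. -/
lemma measure_cell_eq_scell (ρ : Measure E)
    (hties : ∀ (v : E) (c : ℝ), v ≠ 0 → ρ {x | ⟪x, v⟫_ℝ = c} = 0)
    (y : ι → E) (hy : Function.Injective y) (ψ : ι → ℝ) (i : ι) :
    ρ (cell y ψ i) = ρ (scell y ψ i) := by
  apply le_antisymm
  · calc ρ (cell y ψ i) ≤ ρ (scell y ψ i ∪ ties y ψ) :=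
        measure_mono (cell_subset_scell_union_ties y ψ i)
      _ ≤ ρ (scell y ψ i) + ρ (ties y ψ) := measure_union_le _ _
      _ = ρ (scell y ψ i) := by rw [measure_ties ρ hties y hy ψ, add_zero]
  · exact measure_mono (scell_subset_cell y ψ i)

/-- The strict cells carry the whole mass. -/
lemma sum_measure_scell (ρ : Measure E) [IsProbabilityMeasure ρ]
    (hties : ∀ (v : E) (c : ℝ), v ≠ 0 → ρ {x | ⟪x, v⟫_ℝ = c} = 0)
    (y : ι → E) (hy : Function.Injective y) (ψ : ι → ℝ) :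
    ∑ i, ρ (scell y ψ i) = 1 := by
  have h1 : ρ (⋃ i, scell y ψ i) = ∑ i, ρ (scell y ψ i) := by
    rw [measure_iUnion (fun i j hij => scell_disjoint y ψ hij)
      (fun i => measurableSet_scell y ψ i), tsum_fintype]
  have h2 : ρ (⋃ i, scell y ψ i)ᶜ = 0 :=
    measure_mono_null (compl_iUnion_scell_subset_ties y ψ) (measure_ties ρ hties y hy ψ)
  rw [← h1]
  exact (prob_compl_eq_zero_iff (MeasurableSet.iUnion fun i => measurableSet_scell y ψ i)).1 h2

lemma sum_measure_cell (ρ : Measure E) [IsProbabilityMeasure ρ]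
    (hties : ∀ (v : E) (c : ℝ), v ≠ 0 → ρ {x | ⟪x, v⟫_ℝ = c} = 0)
    (y : ι → E) (hy : Function.Injective y) (ψ : ι → ℝ) :
    ∑ i, ρ (cell y ψ i) = 1 := by
  simp only [measure_cell_eq_scell ρ hties y hy ψ]
  exact sum_measure_scell ρ hties y hy ψ

/-- **Existence of Laguerre weights.**  `ρ` a probability measure with bounded support that does
not charge affine hyperplanes, `y` distinct sites, `m` positive masses with total mass one.
Then some weight vector `ψ` minimises the Kantorovich functional and its closed (and strict)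
Laguerre cells have exactly the prescribed masses. -/
theorem exists_weights (ρ : Measure E) [IsProbabilityMeasure ρ] {R : ℝ}
    (hR : ∀ᵐ x ∂ρ, ‖x‖ ≤ R)
    (hties : ∀ (v : E) (c : ℝ), v ≠ 0 → ρ {x | ⟪x, v⟫_ℝ = c} = 0)
    (y : ι → E) (hy : Function.Injective y) (m : ι → ℝ) (hm0 : ∀ i, 0 < m i)
    (hm : ∑ i, m i = 1) :
    ∃ ψ : ι → ℝ, (∀ ψ', Phi ρ y m ψ ≤ Phi ρ y m ψ') ∧
      (∀ i, ρ (cell y ψ i) = ENNReal.ofReal (m i)) ∧
      (∀ i, ρ (scell y ψ i) = ENNReal.ofReal (m i)) := by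
  obtain ⟨ψ, hmin⟩ := exists_min_Phi ρ hR y m hm0 hm
  have hle : ∀ i, ρ (scell y ψ i) ≤ ENNReal.ofReal (m i) :=
    fun i => measure_scell_le_of_min ρ hR y m ψ hmin i
  have hsum := sum_measure_scell ρ hties y hy ψ
  have hle' : ∀ i, (ρ (scell y ψ i)).toReal ≤ m i := fun i =>
    ENNReal.toReal_le_of_le_ofReal (hm0 i).le (hle i)
  have hsum' : ∑ i, (ρ (scell y ψ i)).toReal = ∑ i, m i := by
    rw [← ENNReal.toReal_sum (fun i _ => measure_ne_top ρ _), hsum, hm]; simp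
  have heq : ∀ i, (ρ (scell y ψ i)).toReal = m i := by
    intro i
    have := (Finset.sum_eq_sum_iff_of_le (fun i _ => hle' i)).1 hsum'
    exact this i (Finset.mem_univ i)
  have hs : ∀ i, ρ (scell y ψ i) = ENNReal.ofReal (m i) := fun i => by
    rw [← heq i, ENNReal.ofReal_toReal (measure_ne_top ρ _)]
  refine ⟨ψ, hmin, fun i => ?_, hs⟩
  rw [measure_cell_eq_scell ρ hties y hy ψ i]
  exact hs i

end Crest.Agent.Helper82.SD
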