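import Crest.Agent.Helper82.SD.Exist

/-!
# Uniqueness of Laguerre weights up to an additive constant (raw form)

`ρ` a finite measure carried by a preconnected set `K` on which every relatively open nonempty
piece has positive mass.  If two weight vectors give cells of equal positive masses, they differ
by a constant.  (No injectivity of the sites and no hyperplane hypothesis are needed.)
-/

set_option autoImplicit false
set_option linter.unusedSectionVars false
open MeasureTheory
open scoped ENNReal NNReal InnerProductSpace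

namespace Crest.Agent.Helper82.SD

variable {E : Type*} [NormedAddCommGroup E] [InnerProductSpace ℝ E] [MeasurableSpace E]
  [BorelSpace E]
variable {ι : Type*} [Fintype ι] [Nonempty ι]

omit [MeasurableSpace E] [BorelSpace E] [Nonempty ι] in
/-- At an index where `ψ' - ψ` is maximal, the `ψ'`-cell is contained in the `ψ`-cell. -/
lemma cell_subset_of_max (y : ι → E) (ψ ψ' : ι → ℝ) (i : ι)
    (hi : ∀ j, ψ' j - ψ j ≤ ψ' i - ψ i) : cell y ψ' i ⊆ cell y ψ i := by
  intro x hx j
  have h1 := hx j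
  have h2 := hi j
  linarith

/-- **Uniqueness of Laguerre weights mod constants.** -/
theorem weights_unique (ρ : Measure E) [IsFiniteMeasure ρ] (K : Set E)
    (hKconn : IsPreconnected K) (hKc : ρ Kᶜ = 0)
    (hpos : ∀ U : Set E, IsOpen U → (U ∩ K).Nonempty → 0 < ρ U)
    (y : ι → E) (ψ ψ' : ι → ℝ)
    (hmass : ∀ i, ρ (cell y ψ' i) = ρ (cell y ψ i)) (hmpos : ∀ i, 0 < ρ (cell y ψ i)) :
    ∃ κ : ℝ, ∀ i, ψ' i = ψ i + κ := by
  classical
  obtain ⟨i0, -, hi0⟩ := Finset.exists_max_image Finset.univ (fun i => ψ' i - ψ i)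
    Finset.univ_nonempty
  refine ⟨ψ' i0 - ψ i0, ?_⟩
  by_contra hcon
  push Not at hcon
  obtain ⟨j0, hj0⟩ := hcon
  -- the index set where the maximum is attained
  set I : Set ι := {i | ψ' i - ψ i = ψ' i0 - ψ i0} with hI
  have hj0I : j0 ∉ I := by
    intro h
    apply hj0
    have : ψ' j0 - ψ j0 = ψ' i0 - ψ i0 := h
    linarith
  have hi0I : i0 ∈ I := rfl
  have hmaxI : ∀ i ∈ I, ∀ j, ψ' j - ψ j ≤ ψ' i - ψ i := by
    intro i hi j
    have h1 : ψ' i - ψ i = ψ' i0 - ψ i0 := hi
    rw [h1]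
    exact hi0 j (Finset.mem_univ j)
  -- the two closed sets
  set t : Set E := ⋃ i ∈ I, cell y ψ' i with ht
  set t' : Set E := ⋃ j ∈ Iᶜ, cell y ψ j with ht'
  have htc : IsClosed t := by
    apply Set.Finite.isClosed_biUnion (Set.toFinite I)
    intro i _
    exact isClosed_cell y ψ' i
  have ht'c : IsClosed t' := by
    apply Set.Finite.isClosed_biUnion (Set.toFinite Iᶜ)
    intro i _
    exact isClosed_cell y ψ i
  -- the complement of `t ∪ t'` is null
  have hnull : ρ (t ∪ t')ᶜ = 0 := by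
    have hsub : (t ∪ t')ᶜ ⊆ ⋃ k ∈ I, (cell y ψ k \ cell y ψ' k) := by
      intro x hx
      obtain ⟨k, hk⟩ := exists_mem_cell y ψ x
      have hkI : k ∈ I := by
        by_contra hkI
        exact hx (Or.inr (Set.mem_biUnion (show k ∈ Iᶜ from hkI) hk))
      have hk' : x ∉ cell y ψ' k := fun h => hx (Or.inl (Set.mem_biUnion hkI h))
      exact Set.mem_biUnion hkI ⟨hk, hk'⟩
    refine measure_mono_null hsub ?_
    refine (measure_biUnion_null_iff (Set.to_countable I)).2 fun k hk => ?_
    have hss : cell y ψ' k ⊆ cell y ψ k := cell_subset_of_max y ψ ψ' k (hmaxI k hk)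
    rw [measure_sdiff hss (measurableSet_cell y ψ' k).nullMeasurableSet (measure_ne_top ρ _),
      hmass k, tsub_self]
  -- hence `K ⊆ t ∪ t'`
  have hcover : K ⊆ t ∪ t' := by
    intro x hxK
    by_contra hx
    have hopen : IsOpen (t ∪ t')ᶜ := (htc.union ht'c).isOpen_compl
    have := hpos _ hopen ⟨x, hx, hxK⟩
    rw [hnull] at this
    exact lt_irrefl _ this
  -- both pieces meet `K`
  have hne : ∀ (φ : ι → ℝ) (i : ι), 0 < ρ (cell y φ i) → (K ∩ cell y φ i).Nonempty := by
    intro φ i h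
    have h1 : ρ (K ∩ cell y φ i) ≠ 0 := by
      intro h0
      have h2 : ρ (cell y φ i) ≤ ρ (K ∩ cell y φ i) + ρ Kᶜ := by
        calc ρ (cell y φ i) ≤ ρ ((K ∩ cell y φ i) ∪ Kᶜ) := by
              apply measure_mono
              intro x hx
              by_cases hxK : x ∈ K
              · exact Or.inl ⟨hxK, hx⟩
              · exact Or.inr hxK
          _ ≤ ρ (K ∩ cell y φ i) + ρ Kᶜ := measure_union_le _ _
      rw [h0, hKc, add_zero] at h2
      exact absurd h (not_lt.2 h2)
    exact nonempty_of_measure_ne_zero h1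
  have h1 : (K ∩ t).Nonempty := by
    obtain ⟨x, hxK, hx⟩ := hne ψ' i0 (by rw [hmass i0]; exact hmpos i0)
    exact ⟨x, hxK, Set.mem_biUnion hi0I hx⟩
  have h2 : (K ∩ t').Nonempty := by
    obtain ⟨x, hxK, hx⟩ := hne ψ j0 (hmpos j0)
    exact ⟨x, hxK, Set.mem_biUnion (show j0 ∈ Iᶜ from hj0I) hx⟩
  obtain ⟨x, -, hxt, hxt'⟩ := (isPreconnected_closed_iff.1 hKconn) t t' htc ht'c hcover h1 h2
  -- a common point is impossible
  obtain ⟨i, hiI, hxi⟩ := Set.mem_iUnion₂.1 hxt
  obtain ⟨j, hjI, hxj⟩ := Set.mem_iUnion₂.1 hxt'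
  have e1 := hxi j
  have e2 := hxj i
  have e3 := hmaxI i hiI j
  have e4 : ψ' i - ψ i = ψ' i0 - ψ i0 := hiI
  apply hjI
  show ψ' j - ψ j = ψ' i0 - ψ i0
  linarith

end Crest.Agent.Helper82.SD
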